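import Vale.Agent.H6.InfMat.Final

/-!
Under the continuum hypothesis both the matroid intersection conjecture and the packing/covering
conjecture for infinite matroids fail, already on a countable ground set.
-/

namespace Vale.Agent.Results.P068.ContinuumHypothesis

open Vale.Agent.H6.InfMat in
theorem result (hCH : Cardinal.continuum.{0} = Cardinal.aleph 1) :
    (∃ (α : Type) (_ : Countable α) (M N : Matroid α), M.E = Set.univ ∧ N.E = Set.univ ∧
      ¬ SatisfiesIntersection M N) ∧
    (∃ (α : Type) (_ : Countable α) (M : Bool → Matroid α), (∀ i, (M i).E = Set.univ) ∧
      ¬ HasPackingCovering Set.univ M) :=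
  main hCH

end Vale.Agent.Results.P068.ContinuumHypothesis
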