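import Vale.Agent.H18.RayFinal

/-! The intersection conjecture and the packing/covering conjecture fail, already on a countable
ground set, if every family of fewer than continuum many infinite sets of natural numbers is split
by one set; in particular they fail under the continuum hypothesis. -/

namespace Vale.Agent.Results.P068.ReapingDisproof

open Vale.Agent.H18.Ray Cardinal Matroid

theorem result :
    ((ℵ₁ : Cardinal.{0}) = 𝔠 → Reap) ∧
    (Reap →
      (∃ M N : Matroid (ℤ × ℕ), M.E = Set.univ ∧ N.E = Set.univ ∧
        IsSumOfUniform M ∧ IsSumOfUniform N ∧ ¬ SatisfiesIntersection M N ∧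
        ¬ HasPackingCovering Set.univ (fun b : Bool => cond b M N✶)) ∧
      ¬ IntersectionConjecture ∧ ¬ PackingCoveringConjecture) :=
  ⟨reap_of_CH, fun hR => ⟨main hR, main_conj hR⟩⟩

end Vale.Agent.Results.P068.ReapingDisproof
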